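import Crest.Agent.R177.Defs

/-!
# Auxiliary lemmas for Euler's inequality (linear algebra over `ZMod 2`)
-/

set_option autoImplicit false

namespace Crest.Agent.R177.EulerAux

open Equiv Module

/-- functions invariant under `σ` -/
def Inv {D : Type} (σ : D → D) : Submodule (ZMod 2) (D → ZMod 2) where
  carrier := {f | ∀ d, f (σ d) = f d}
  add_mem' := by
    intro f g hf hg d
    simp only [Pi.add_apply]
    rw [hf d, hg d]
  zero_mem' := by intro d; rfl
  smul_mem' := by
    intro c f hf d
    simp only [Pi.smul_apply]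
    rw [hf d]

theorem mem_Inv {D : Type} (σ : D → D) (f : D → ZMod 2) : f ∈ Inv σ ↔ ∀ d, f (σ d) = f d :=
  Iff.rfl

/-- the coboundary `f ↦ f ∘ σ + f` -/
def cob {D : Type} (σ : D → D) : (D → ZMod 2) →ₗ[ZMod 2] (D → ZMod 2) where
  toFun f d := f (σ d) + f d
  map_add' f g := by
    funext d
    simp only [Pi.add_apply]
    ring
  map_smul' c f := by
    funext d
    simp only [Pi.smul_apply, smul_eq_mul, RingHom.id_apply]
    ring

theorem cob_apply {D : Type} (σ : D → D) (f : D → ZMod 2) (d : D) :
    cob σ f d = f (σ d) + f d := rfl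

theorem add_self' (x : ZMod 2) : x + x = 0 := by
  revert x; decide

theorem eq_of_add_eq_zero' (x y : ZMod 2) (h : x + y = 0) : x = y := by
  revert x y; decide

/-- an involution has at least `|D| / 2` orbits -/
theorem card_le_two_mul_finrank {D : Type} [Fintype D] (α : D → D) (hα : ∀ d, α (α d) = d) :
    Fintype.card D ≤ 2 * finrank (ZMod 2) (Inv α) := by
  have h1 := LinearMap.finrank_range_add_finrank_ker (cob α)
  have h2 : LinearMap.range (cob α) ≤ Inv α := by
    rintro _ ⟨f, rfl⟩ d
    simp only [cob_apply, hα]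
    ring
  have h3 : LinearMap.ker (cob α) ≤ Inv α := by
    intro f hf d
    have := congrFun (LinearMap.mem_ker.1 hf) d
    exact eq_of_add_eq_zero' _ _ this
  have h4 := Submodule.finrank_mono h2
  have h5 := Submodule.finrank_mono h3
  rw [Module.finrank_fintype_fun_eq_card] at h1
  omega

theorem inv_sameCycle {D : Type} (ρ : Perm D) (f : D → ZMod 2) (hf : ∀ d, f (ρ d) = f d)
    {x y : D} (h : ρ.SameCycle x y) : f x = f y := by
  obtain ⟨n, rfl⟩ := h
  induction n using Int.induction_on with
  | zero => simp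
  | succ n ih =>
    rw [ih, add_comm, zpow_add, zpow_one, Perm.mul_apply, hf]
  | pred n ih =>
    rw [ih, ← hf ((ρ ^ (-(n : ℤ) - 1)) x), ← Perm.mul_apply, ← zpow_one_add]
    congr 3
    ring

/-- the invariant functions have dimension at most the number of orbits -/
theorem finrank_inv_le {D : Type} [Fintype D] (ρ : Perm D)
    [Fintype (Quotient (Perm.SameCycle.setoid ρ))] :
    finrank (ZMod 2) (Inv ρ) ≤ Fintype.card (Quotient (Perm.SameCycle.setoid ρ)) := by
  let L : Inv ρ →ₗ[ZMod 2] (Quotient (Perm.SameCycle.setoid ρ) → ZMod 2) :=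
    { toFun := fun f q => f.1 q.out
      map_add' := fun f g => rfl
      map_smul' := fun c f => rfl }
  have hL : Function.Injective L := by
    intro f g hfg
    apply Subtype.ext
    funext d
    have h1 : ρ.SameCycle (Quotient.mk (Perm.SameCycle.setoid ρ) d).out d :=
      Quotient.exact (Quotient.out_eq (Quotient.mk (Perm.SameCycle.setoid ρ) d))
    have h2 := congrFun hfg (Quotient.mk (Perm.SameCycle.setoid ρ) d)
    have h3 := inv_sameCycle ρ f.1 f.2 h1
    have h4 := inv_sameCycle ρ g.1 g.2 h1
    rw [← h3, ← h4]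
    exact h2
  have := LinearMap.finrank_le_finrank_of_injective hL
  rwa [Module.finrank_fintype_fun_eq_card] at this

/-- weight of a dart: `6 / (size of its orbit)` capped at orbit size `3` -/
def wt {D : Type} [DecidableEq D] (ρ : Perm D) (d : D) : ℕ :=
  if ρ d = d then 6 else if ρ (ρ d) = d then 3 else 2

theorem orbits_le {D : Type} [Fintype D] [DecidableEq D] (ρ : Perm D)
    [Fintype (Quotient (Perm.SameCycle.setoid ρ))] :
    6 * Fintype.card (Quotient (Perm.SameCycle.setoid ρ)) ≤ ∑ d, wt ρ d := by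
  classical
  rw [← Finset.sum_fiberwise Finset.univ (fun d => Quotient.mk (Perm.SameCycle.setoid ρ) d)]
  rw [← Finset.card_univ, mul_comm, ← smul_eq_mul]
  apply Finset.card_nsmul_le_sum
  intro q _
  obtain ⟨x, rfl⟩ := Quotient.exists_rep q
  have hx1 : Quotient.mk (Perm.SameCycle.setoid ρ) (ρ x) = Quotient.mk _ x :=
    Quotient.sound (Perm.SameCycle.symm ⟨1, by simp⟩)
  have hx2 : Quotient.mk (Perm.SameCycle.setoid ρ) (ρ (ρ x)) = Quotient.mk _ x :=
    Quotient.sound (Perm.SameCycle.symm ⟨2, by rw [zpow_two]; rfl⟩)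
  by_cases h1 : ρ x = x
  · refine le_trans ?_ (Finset.single_le_sum (f := wt ρ) (a := x) (fun _ _ => Nat.zero_le _) ?_)
    · simp [wt, h1]
    · simp
  · by_cases h2 : ρ (ρ x) = x
    · refine le_trans ?_ (Finset.sum_le_sum_of_subset (s := {x, ρ x}) ?_)
      · rw [Finset.sum_pair (Ne.symm h1)]
        have h3 : ρ (ρ x) ≠ ρ x := fun h => h1 (ρ.injective h)
        simp [wt, h1, h2, Ne.symm h1]
      · intro y hy
        simp only [Finset.mem_insert, Finset.mem_singleton] at hy
        rcases hy with rfl | rfl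
        · simp
        · simp [hx1]
    · refine le_trans ?_ (Finset.sum_le_sum_of_subset (s := {x, ρ x, ρ (ρ x)}) ?_)
      · have h3 : ρ x ≠ ρ (ρ x) := fun h => h1 (ρ.injective h).symm
        have hw : ∀ y, 2 ≤ wt ρ y := by
          intro y
          unfold wt
          split_ifs <;> omega
        rw [Finset.sum_insert, Finset.sum_pair h3]
        · have := hw x
          have := hw (ρ x)
          have := hw (ρ (ρ x))
          omega
        · simp only [Finset.mem_insert, Finset.mem_singleton, not_or]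
          exact ⟨Ne.symm h1, Ne.symm h2⟩
      · intro y hy
        simp only [Finset.mem_insert, Finset.mem_singleton] at hy
        rcases hy with rfl | rfl | rfl
        · simp
        · simp [hx1]
        · simp [hx2]

theorem sum_wt {D : Type} [Fintype D] [DecidableEq D] (ρ : Perm D) :
    ∑ d, wt ρ d + (Finset.univ.filter (fun x => ρ (ρ x) ≠ x)).card =
      3 * Fintype.card D + 3 * (Finset.univ.filter (fun x => ρ x = x)).card := by
  rw [Finset.card_filter, Finset.card_filter, ← Finset.card_univ, Finset.card_eq_sum_ones,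
    Finset.mul_sum, Finset.mul_sum, ← Finset.sum_add_distrib, ← Finset.sum_add_distrib]
  apply Finset.sum_congr rfl
  intro d _
  unfold wt
  by_cases h1 : ρ d = d
  · simp [h1]
  · by_cases h2 : ρ (ρ d) = d
    · simp [h1, h2]
    · simp [h1, h2]

section Pieces

variable {D P : Type} {φ : Perm D} (Pi : Pieces φ P)

/-- the sums over the pieces -/
def psum : (D → ZMod 2) →ₗ[ZMod 2] (P → ZMod 2) where
  toFun z p := ∑ k ∈ Finset.range (Pi.len p), z (Pi.dt p k)
  map_add' f g := by
    funext p
    simp [Finset.sum_add_distrib]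
  map_smul' c f := by
    funext p
    simp [Finset.mul_sum]

theorem psum_apply (z : D → ZMod 2) (p : P) :
    psum Pi z p = ∑ k ∈ Finset.range (Pi.len p), z (Pi.dt p k) := rfl

theorem sum_psum [Fintype D] [Fintype P] (z : D → ZMod 2) : ∑ p, psum Pi z p = ∑ d, z d := by
  classical
  rw [← Finset.sum_fiberwise Finset.univ Pi.pc]
  apply Finset.sum_congr rfl
  intro p _
  rw [psum_apply]
  apply Finset.sum_bij' (fun k _ => Pi.dt p k) (fun d _ => Pi.idx d)
  · intro k hk
    simp only [Finset.mem_filter, Finset.mem_univ, true_and]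
    exact Pi.pc_dt p k (Finset.mem_range.1 hk)
  · intro d hd
    simp only [Finset.mem_filter, Finset.mem_univ, true_and] at hd
    rw [Finset.mem_range, ← hd]
    exact Pi.idx_lt d
  · intro k hk
    exact Pi.idx_dt p k (Finset.mem_range.1 hk)
  · intro d hd
    simp only [Finset.mem_filter, Finset.mem_univ, true_and] at hd
    rw [← hd]
    exact Pi.dt_pc d
  · intro k _
    rfl

/-- after the last dart of a piece a new piece starts -/
theorem idx_next (d : D) (h : Pi.idx d + 1 = Pi.len (Pi.pc d)) : Pi.idx (φ d) = 0 := by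
  by_contra hne
  obtain ⟨i, hi⟩ := Nat.exists_eq_succ_of_ne_zero hne
  have h1 := Pi.dt_pc (φ d)
  have h2 := Pi.idx_lt (φ d)
  rw [hi, Pi.dt_succ] at h1
  have h3 : Pi.dt (Pi.pc (φ d)) i = d := φ.injective h1
  have h4 := Pi.pc_dt (Pi.pc (φ d)) i (by omega)
  have h5 := Pi.idx_dt (Pi.pc (φ d)) i (by omega)
  rw [h3] at h4 h5
  rw [← h4] at h2
  omega

/-- a function with vanishing piece sums has a potential -/
theorem exists_pot (z : D → ZMod 2) (hz : psum Pi z = 0) :
    ∃ ψ : D → ZMod 2, ∀ d, ψ (φ d) + ψ d = z d := by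
  refine ⟨fun d => ∑ k ∈ Finset.range (Pi.idx d), z (Pi.dt (Pi.pc d) k), fun d => ?_⟩
  have h0 := Pi.idx_lt d
  have hd := Pi.dt_pc d
  by_cases h : Pi.idx d + 1 = Pi.len (Pi.pc d)
  · have h1 := idx_next Pi d h
    have h2 := congrFun hz (Pi.pc d)
    rw [psum_apply, ← h, Finset.sum_range_succ, hd] at h2
    simp only [h1, Finset.range_zero, Finset.sum_empty, zero_add]
    exact eq_of_add_eq_zero' _ _ h2
  · have h1 : Pi.idx d + 1 < Pi.len (Pi.pc d) := by omega
    have h2 : φ d = Pi.dt (Pi.pc d) (Pi.idx d + 1) := by rw [Pi.dt_succ, hd]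
    have h3 : Pi.pc (φ d) = Pi.pc d := by rw [h2]; exact Pi.pc_dt _ _ h1
    have h4 : Pi.idx (φ d) = Pi.idx d + 1 := by rw [h2]; exact Pi.idx_dt _ _ h1
    simp only [h3, h4]
    rw [Finset.sum_range_succ, hd, add_right_comm, add_self', zero_add]

end Pieces

/-- Euler's inequality `E + 2 ≤ V + |P|` in terms of dimensions -/
theorem euler_dim {D P : Type} [Fintype D] [Fintype P] [Nonempty D] (φ α : Perm D)
    (hα : ∀ d, α (α d) = d) (hα' : ∀ d, α d ≠ d) (hpl : Planar φ α) (Pi : Pieces φ P) :
    finrank (ZMod 2) (Inv α) + 2 ≤ finrank (ZMod 2) (Inv (φ * α : Perm D)) + Fintype.card P := by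
  classical
  let S : Inv α →ₗ[ZMod 2] (P → ZMod 2) := (psum Pi).comp (Inv α).subtype
  have hS := LinearMap.finrank_range_add_finrank_ker S
  have hSr : finrank (ZMod 2) (LinearMap.range S) < Fintype.card P := by
    rw [← Module.finrank_fintype_fun_eq_card (ZMod 2)]
    apply Submodule.finrank_lt
    intro htop
    let p0 : P := Pi.pc (Classical.arbitrary D)
    have hm : (_root_.Pi.single p0 1 : P → ZMod 2) ∈ LinearMap.range S := htop ▸ Submodule.mem_top
    obtain ⟨z, hz⟩ := hm
    have h1 : ∑ p, psum Pi z.1 p = ∑ p, (_root_.Pi.single p0 1 : P → ZMod 2) p := by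
      rw [← hz]; rfl
    rw [sum_psum, Finset.sum_pi_single'] at h1
    have h2 : ∑ d, z.1 d = 0 := by
      apply Finset.sum_involution (fun d _ => α d)
      · intro d _
        rw [z.2 d]
        exact add_self' _
      · intro d _ _
        exact hα' d
      · intro d _
        exact Finset.mem_univ _
      · intro d _
        exact hα d
    rw [h2] at h1
    simp at h1
  let δ : Inv (φ * α : Perm D) →ₗ[ZMod 2] (D → ZMod 2) := (cob φ).comp (Inv _).subtype
  have hδ := LinearMap.finrank_range_add_finrank_ker δ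
  have hδk : 1 ≤ finrank (ZMod 2) (LinearMap.ker δ) := by
    rw [Submodule.one_le_finrank_iff]
    intro hbot
    have h1 : (⟨fun _ => 1, fun _ => rfl⟩ : Inv (φ * α : Perm D)) ∈ LinearMap.ker δ := by
      rw [LinearMap.mem_ker]
      funext d
      exact add_self' 1
    rw [hbot, Submodule.mem_bot] at h1
    have h2 := congrFun (congrArg Subtype.val h1) (Classical.arbitrary D)
    simp at h2
  have hle : (LinearMap.ker S).map (Inv α).subtype ≤ LinearMap.range δ := by
    rintro _ ⟨z, hz, rfl⟩
    obtain ⟨ψ, hψ⟩ := exists_pot Pi z.1 hz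
    obtain ⟨χ, h1, h2⟩ := hpl ψ (fun d => by rw [hψ, hψ, z.2 d])
    refine ⟨⟨χ, fun d => ?_⟩, ?_⟩
    · rw [Perm.mul_apply, ← h2, hα]
    · funext d
      change χ (φ d) + χ d = z.1 d
      rw [h1, hψ]
  have h1 := Submodule.finrank_mono hle
  rw [Submodule.finrank_map_subtype_eq] at h1
  omega

end Crest.Agent.R177.EulerAux
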